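import Vale.Agent.P032.H396.Left

/-!
# P032: one-sided rays and the three-ray star

* `Mx.ray_half503`: a one-sided arc at the direction `t0` which carries the colour `i` keeps `i` off the
  orthogonal ray on its side.
* `Half503 U T z p q t0`: letter after `t0` and letter before `t0 + π` leave at most `p`, `q`;
  `Irr.half_ray503`: then `T ⊆ {p, q}` on the ray `t0 + π / 2`.
* `Star503 T z p q`: the unit circles of the points near `S(z)`, off `S(z)`, meet `T ⊆ {p, q}`.
  It follows from `Left2` and from rays whose directions are in no closed half plane.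
* `Irr.star_near503`, `Irr.no_silent503`: the left-over lemma and `no_silent` from `Star503`.
-/

open Set Filter Topology Metric

noncomputable section

namespace Vale.Agent.P032.Six

variable {k : ℕ} {U : Fin k → Set ℂ} {T : ℂ → Set (Fin k)}

/-- a one-sided arc keeps its colours off the orthogonal ray on its side -/
theorem Mx.ray_half503 (h : Mx U) {z : ℂ} {t0 η σ : ℝ} (hσ : σ = 1 ∨ σ = -1) (hη : 0 < η) {i : Fin k}
    (hJ : ∀ s : ℝ, 0 < s → s < η → i ∈ Pal U (z + cis (t0 + σ * s))) :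
    ∀ᶠ r : ℝ in 𝓝[>] 0, i ∉ Pal U (z + r * (σ * (Complex.I * cis t0))) := by
  -- the closed arc
  have hJ0 : ∀ s : ℝ, 0 ≤ s → s < η → i ∈ Pal U (z + cis (t0 + σ * s)) := by
    intro s hs0 hs
    have hcont : Continuous fun s : ℝ => z + cis (t0 + σ * s) :=
      continuous_const.add (continuous_cis.comp (by fun_prop))
    have hcl : IsClosed {s : ℝ | i ∈ Pal U (z + cis (t0 + σ * s))} :=
      isClosed_closure.preimage hcont
    have h1 : Ioo (0 : ℝ) η ⊆ {s : ℝ | i ∈ Pal U (z + cis (t0 + σ * s))} := fun s h1 => hJ s h1.1 h1.2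
    refine hcl.closure_subset_iff.2 h1 ?_
    rw [closure_Ioo hη.ne]
    exact ⟨hs0, hs.le⟩
  set s := min (η / 2) 1 with hs
  have hs0 : 0 < s := by positivity
  have hs1 : s ≤ 1 := min_le_right _ _
  have hsη : s < η := lt_of_le_of_lt (min_le_left _ _) (by linarith)
  have hsin : 0 < Real.sin s := Real.sin_pos_of_pos_of_lt_pi hs0 (by linarith [Real.pi_gt_three])
  have hr : ∀ᶠ r : ℝ in 𝓝[>] 0, 0 < r ∧ r < 2 * Real.sin s := by
    filter_upwards [self_mem_nhdsWithin,
      mem_nhdsWithin_of_mem_nhds (Iio_mem_nhds (show (0 : ℝ) < 2 * Real.sin s by linarith))]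
      with r h1 h2
    exact ⟨h1, h2⟩
  filter_upwards [hr] with r hr
  have key : ∀ t : ℝ, dist (z + cis t) (z + r * (σ * (Complex.I * cis t0))) ^ 2 =
      1 - 2 * r * σ * Real.sin (t - t0) + r ^ 2 := by
    intro t
    have hσ2 : σ ^ 2 = 1 := by rcases hσ with rfl | rfl <;> norm_num
    rw [sq_dist]
    simp only [Complex.add_re, Complex.add_im, Complex.mul_re, Complex.mul_im, Complex.ofReal_re,
      Complex.ofReal_im, Complex.I_re, Complex.I_im, cis_re, cis_im]
    rw [Real.sin_sub]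
    have h1 := Real.sin_sq_add_cos_sq t
    have h2 := Real.sin_sq_add_cos_sq t0
    linear_combination h1 + r ^ 2 * σ ^ 2 * h2 + r ^ 2 * hσ2
  have hd := dist_nonneg (x := z + cis (t0 + σ * s)) (y := z + r * (σ * (Complex.I * cis t0)))
  have hd' := dist_nonneg (x := z + cis t0) (y := z + r * (σ * (Complex.I * cis t0)))
  refine h.swept (z := z) (t1 := t0 + σ * s) (t2 := t0) ?_ ?_ ?_
  · intro t ht
    have h1 := hJ0 (σ * (t - t0))
    have e : t0 + σ * (σ * (t - t0)) = t := by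
      have hσ2 : σ * σ = 1 := by rcases hσ with rfl | rfl <;> norm_num
      rw [← mul_assoc, hσ2]; ring
    rw [e] at h1
    refine h1 ?_ ?_
    · rcases hσ with rfl | rfl
      · rw [uIcc_of_ge (by linarith)] at ht
        linarith [ht.1]
      · rw [uIcc_of_le (by linarith)] at ht
        linarith [ht.2]
    · rcases hσ with rfl | rfl
      · rw [uIcc_of_ge (by linarith)] at ht
        linarith [ht.2]
      · rw [uIcc_of_le (by linarith)] at ht
        linarith [ht.1]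
  · have := key (t0 + σ * s)
    have h3 : σ * Real.sin (t0 + σ * s - t0) = Real.sin s := by
      rcases hσ with rfl | rfl
      · rw [show t0 + 1 * s - t0 = s by ring]; ring
      · rw [show t0 + -1 * s - t0 = -s by ring, Real.sin_neg]; ring
    have h4 : 2 * r * σ * Real.sin (t0 + σ * s - t0) = 2 * r * Real.sin s := by
      rw [mul_assoc (2 * r), h3]
    rw [h4] at this
    nlinarith [hr.1, hr.2]
  · have := key t0
    rw [sub_self, Real.sin_zero, mul_zero, sub_zero] at this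
    nlinarith [hr.1, mul_pos hr.1 hr.1]

/-- the letter `P` after `t0` and the letter `Q` before `t0 + π` leave at most the colours `p`, `q` -/
def Half503 (U : Fin k → Set ℂ) (T : ℂ → Set (Fin k)) (z : ℂ) (p q : Fin k) (t0 : ℝ) : Prop :=
  ∃ P Q : Set (Fin k), T z ⊆ P ∪ Q ∪ {p, q} ∧ ∃ η > 0,
    (∀ s : ℝ, 0 < s → s < η → P ⊆ Pal U (z + cis (t0 + s))) ∧
    ∀ s : ℝ, 0 < s → s < η → Q ⊆ Pal U (z + cis (t0 + Real.pi - s))

theorem tendsto_ray503 (z u : ℂ) : Tendsto (fun r : ℝ => z + r * u) (𝓝[>] 0) (𝓝 z) := by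
  have hc : Continuous fun r : ℝ => z + r * u := by fun_prop
  have := hc.tendsto 0
  simp only [Complex.ofReal_zero, zero_mul, add_zero] at this
  exact this.mono_left nhdsWithin_le_nhds

/-- **One-sided ray lemma**: on the ray in the direction `t0 + π / 2` only the left-over colours -/
theorem Irr.half_ray503 (h : Irr U T) {z : ℂ} {p q : Fin k} {t0 : ℝ} (hL : Half503 U T z p q t0) :
    ∀ᶠ r : ℝ in 𝓝[>] 0, T (z + r * (Complex.I * cis t0)) ⊆ {p, q} := by
  obtain ⟨P, Q, hsub, η, hη, hP, hQ⟩ := hL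
  have e1 : ∀ i : Fin k, ∀ᶠ r : ℝ in 𝓝[>] 0, i ∈ P → i ∉ Pal U (z + r * (Complex.I * cis t0)) := by
    intro i
    by_cases hi : i ∈ P
    · have h1 := h.mx.ray_half503 (z := z) (t0 := t0) (σ := 1) (Or.inl rfl) hη (i := i)
        (fun s h1 h2 => by rw [one_mul]; exact hP s h1 h2 hi)
      filter_upwards [h1] with r hr _
      rwa [Complex.ofReal_one, one_mul] at hr
    · exact Eventually.of_forall fun r hr => absurd hr hi
  have e2 : ∀ i : Fin k, ∀ᶠ r : ℝ in 𝓝[>] 0, i ∈ Q → i ∉ Pal U (z + r * (Complex.I * cis t0)) := by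
    intro i
    by_cases hi : i ∈ Q
    · have h1 := h.mx.ray_half503 (z := z) (t0 := t0 + Real.pi) (σ := -1) (Or.inr rfl) hη (i := i)
        (fun s h1 h2 => by
          rw [show t0 + Real.pi + -1 * s = t0 + Real.pi - s by ring]; exact hQ s h1 h2 hi)
      filter_upwards [h1] with r hr _
      rw [cis_add_pi] at hr
      have e : (r : ℂ) * (((-1 : ℝ) : ℂ) * (Complex.I * -cis t0)) =
          r * (Complex.I * cis t0) := by push_cast; ring
      rwa [e] at hr
    · exact Eventually.of_forall fun r hr => absurd hr hi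
  filter_upwards [eventually_all.2 e1, eventually_all.2 e2, (tendsto_ray503 z _).eventually (h.nhd z)]
    with r h1 h2 h3 i hi
  have h4 := h.sub _ hi
  rcases hsub (h3 hi) with (h5 | h5) | h5
  · exact absurd h4 (h1 i h5)
  · exact absurd h4 (h2 i h5)
  · exact h5

/-- the unit circles of the points near `S(z)`, off `S(z)`, contain points with `T ⊆ {p, q}` -/
def Star503 (T : ℂ → Set (Fin k)) (z : ℂ) (p q : Fin k) : Prop :=
  ∀ y0, dist y0 z = 1 → ∀ᶠ w in 𝓝 y0, dist w z ≠ 1 → ∃ x, dist x w = 1 ∧ T x ⊆ {p, q}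

theorem Star503.symm {z : ℂ} {p q : Fin k} (h : Star503 T z p q) : Star503 T z q p := by
  intro y0 hy0
  filter_upwards [h y0 hy0] with w hw hwz
  obtain ⟨x, hx, hT⟩ := hw hwz
  exact ⟨x, hx, by rwa [Set.pair_comm q p]⟩

/-- antipodal arcs give the star -/
theorem Irr.star_of_left503 (h : Irr U T) {z : ℂ} {p q : Fin k} {t0 : ℝ} (hL : Left2 U T z p q t0) :
    Star503 T z p q := by
  intro y0 hy0
  obtain ⟨η, hη, hline⟩ := h.left_line hL
  have hn : ‖y0 - z‖ = 1 := by rw [← dist_eq_norm]; exact hy0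
  obtain ⟨t, ht, hip⟩ := exists_dir hn t0 hη
  obtain ⟨δ, hδ, hd⟩ := hline t ht
  filter_upwards [line_crossing (z := z) (u := Complex.I * cis t) (y := y0)
    (by rw [dist_comm]; exact hy0) hip hδ] with w hw hwz
  obtain ⟨r, hr, hrw⟩ := hw
  have hr0 : r ≠ 0 := by
    rintro rfl
    rw [Complex.ofReal_zero, zero_mul, add_zero] at hrw
    exact hwz (by rw [dist_comm]; exact hrw)
  exact ⟨_, hrw, hd r hr0 hr⟩

theorem ip_neg_right503 (a b : ℂ) : ip a (-b) = -ip a b := by
  unfold ip; simp; ring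

/-- a ray towards `y0` meets the unit circles of the points outside `S(z)` near `y0` -/
theorem ray_out503 {z u y0 : ℂ} (hy0 : dist y0 z = 1) (hip : 0 < ip u (y0 - z)) {V : Set ℂ}
    (hV : ∀ᶠ r : ℝ in 𝓝[>] 0, z + r * u ∈ V) :
    ∀ᶠ w in 𝓝 y0, 1 < dist w z → ∃ x ∈ V, dist x w = 1 := by
  obtain ⟨δ, hδ, hd⟩ := mem_nhdsGT_iff_exists_Ioo_subset.1 hV
  obtain ⟨r, hr0, hrδ, hr⟩ : ∃ r : ℝ, 0 < r ∧ r < δ ∧ r * ip u u < 2 * ip u (y0 - z) := by
    have h0 : 0 ≤ ip u u := by unfold ip; nlinarith [sq_nonneg u.re, sq_nonneg u.im]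
    refine ⟨min (δ / 2) (ip u (y0 - z) / (ip u u + 1)), ?_,
      lt_of_le_of_lt (min_le_left _ _) (by have : (0 : ℝ) < δ := hδ; linarith), ?_⟩
    · have : (0 : ℝ) < δ := hδ
      positivity
    have h1 : min (δ / 2) (ip u (y0 - z) / (ip u u + 1)) ≤ ip u (y0 - z) / (ip u u + 1) :=
      min_le_right _ _
    have h2 : ip u (y0 - z) / (ip u u + 1) * ip u u ≤ ip u (y0 - z) := by
      rw [div_mul_eq_mul_div, div_le_iff₀ (by linarith)]
      nlinarith
    nlinarith [mul_le_mul_of_nonneg_right h1 h0]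
  have h3 : dist (z + r * u) y0 < 1 := by
    have h4 := sq_line z u y0 r
    rw [dist_comm z y0, hy0] at h4
    have h5 := dist_nonneg (x := z + r * u) (y := y0)
    nlinarith
  have e1 : ∀ᶠ w in 𝓝 y0, dist (z + r * u) w < 1 :=
    (continuous_const.dist continuous_id).continuousAt.eventually (Iio_mem_nhds h3)
  filter_upwards [e1] with w hw hwz
  have hcont : ContinuousOn (fun t : ℝ => dist (z + t * u) w) (uIcc 0 r) := by fun_prop
  have hmem : (1 : ℝ) ∈ uIcc (dist (z + (0 : ℝ) * u) w) (dist (z + r * u) w) := by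
    simp only [Complex.ofReal_zero, zero_mul, add_zero]
    rw [dist_comm z w, uIcc_of_ge (by linarith)]
    exact ⟨hw.le, hwz.le⟩
  obtain ⟨t, ht, ht1⟩ := intermediate_value_uIcc hcont hmem
  rw [uIcc_of_le hr0.le] at ht
  have ht0 : t ≠ 0 := by
    rintro rfl
    simp only [Complex.ofReal_zero, zero_mul, add_zero] at ht1
    rw [dist_comm] at ht1
    linarith
  exact ⟨z + t * u, hd ⟨lt_of_le_of_ne ht.1 (Ne.symm ht0), lt_of_le_of_lt ht.2 hrδ⟩, ht1⟩

/-- a ray away from `y0` meets the unit circles of the points inside `S(z)` near `y0` -/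
theorem ray_in503 {z u y0 : ℂ} (hy0 : dist y0 z = 1) (hip : ip u (y0 - z) < 0) {V : Set ℂ}
    (hV : ∀ᶠ r : ℝ in 𝓝[>] 0, z + r * u ∈ V) :
    ∀ᶠ w in 𝓝 y0, dist w z < 1 → ∃ x ∈ V, dist x w = 1 := by
  obtain ⟨δ, hδ, hd⟩ := mem_nhdsGT_iff_exists_Ioo_subset.1 hV
  have hδ : (0 : ℝ) < δ := hδ
  have h0 : 0 ≤ ip u u := by unfold ip; nlinarith [sq_nonneg u.re, sq_nonneg u.im]
  have h3 : 1 < dist (z + (δ / 2 : ℝ) * u) y0 := by
    have h4 := sq_line z u y0 (δ / 2)
    rw [dist_comm z y0, hy0] at h4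
    have h5 := dist_nonneg (x := z + (δ / 2 : ℝ) * u) (y := y0)
    nlinarith [mul_pos hδ (neg_pos.2 hip), mul_nonneg (sq_nonneg (δ / 2)) h0]
  have e1 : ∀ᶠ w in 𝓝 y0, 1 < dist (z + (δ / 2 : ℝ) * u) w :=
    (continuous_const.dist continuous_id).continuousAt.eventually (Ioi_mem_nhds h3)
  filter_upwards [e1] with w hw hwz
  have hcont : ContinuousOn (fun t : ℝ => dist (z + t * u) w) (uIcc 0 (δ / 2)) := by fun_prop
  have hmem : (1 : ℝ) ∈ uIcc (dist (z + (0 : ℝ) * u) w) (dist (z + (δ / 2 : ℝ) * u) w) := by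
    simp only [Complex.ofReal_zero, zero_mul, add_zero]
    rw [dist_comm z w, uIcc_of_le (by linarith)]
    exact ⟨hwz.le, hw.le⟩
  obtain ⟨t, ht, ht1⟩ := intermediate_value_uIcc hcont hmem
  rw [uIcc_of_le (by linarith)] at ht
  have ht0 : t ≠ 0 := by
    rintro rfl
    simp only [Complex.ofReal_zero, zero_mul, add_zero] at ht1
    rw [dist_comm] at ht1
    linarith
  exact ⟨z + t * u, hd ⟨lt_of_le_of_ne ht.1 (Ne.symm ht0), by linarith [ht.2]⟩, ht1⟩

/-- **Star of rays**: rays with `T ⊆ {p, q}` whose directions are in no closed half plane -/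
theorem star_of_rays503 {ι : Type*} {z : ℂ} {p q : Fin k} (u : ι → ℂ)
    (hu : ∀ j, ∀ᶠ r : ℝ in 𝓝[>] 0, T (z + r * u j) ⊆ {p, q})
    (hpos : ∀ n : ℂ, n ≠ 0 → ∃ j, 0 < ip (u j) n) : Star503 T z p q := by
  intro y0 hy0
  have hne : y0 - z ≠ 0 := by
    intro h0
    rw [dist_eq_norm, h0, norm_zero] at hy0
    exact zero_ne_one hy0
  obtain ⟨j, hj⟩ := hpos _ hne
  obtain ⟨j', hj'⟩ := hpos _ (neg_ne_zero.2 hne)
  rw [ip_neg_right503] at hj'
  filter_upwards [ray_out503 hy0 hj (V := {x | T x ⊆ {p, q}}) (hu j),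
    ray_in503 hy0 (neg_pos.1 hj') (V := {x | T x ⊆ {p, q}}) (hu j')] with w h1 h2 hwz
  rcases lt_or_gt_of_ne hwz with h3 | h3
  · obtain ⟨x, hx, hxw⟩ := h2 h3
    exact ⟨x, hxw, hx⟩
  · obtain ⟨x, hx, hxw⟩ := h1 h3
    exact ⟨x, hxw, hx⟩

/-- three directions `120°` apart are in no closed half plane -/
theorem three_pos503 (t0 : ℝ) {n : ℂ} (hn : n ≠ 0) :
    0 < ip (Complex.I * cis t0) n ∨ 0 < ip (Complex.I * cis (t0 + 2 * Real.pi / 3)) n ∨
      0 < ip (Complex.I * cis (t0 + 4 * Real.pi / 3)) n := by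
  rw [ip_I_cis, ip_I_cis, ip_I_cis]
  have c3 : Real.cos (2 * Real.pi / 3) = -(1 / 2) := by
    rw [show 2 * Real.pi / 3 = Real.pi - Real.pi / 3 by ring, Real.cos_pi_sub, Real.cos_pi_div_three]
  have s3 : Real.sin (2 * Real.pi / 3) = Real.sqrt 3 / 2 := by
    rw [show 2 * Real.pi / 3 = Real.pi - Real.pi / 3 by ring, Real.sin_pi_sub, Real.sin_pi_div_three]
  have c4 : Real.cos (4 * Real.pi / 3) = -(1 / 2) := by
    rw [show 4 * Real.pi / 3 = Real.pi / 3 + Real.pi by ring, Real.cos_add_pi,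
      Real.cos_pi_div_three]
  have s4 : Real.sin (4 * Real.pi / 3) = -(Real.sqrt 3 / 2) := by
    rw [show 4 * Real.pi / 3 = Real.pi / 3 + Real.pi by ring, Real.sin_add_pi,
      Real.sin_pi_div_three]
  rw [Real.cos_add, Real.sin_add, Real.cos_add, Real.sin_add, c3, s3, c4, s4]
  set A := Real.cos t0 * n.im - Real.sin t0 * n.re with hA
  set B := Real.sin t0 * n.im + Real.cos t0 * n.re with hB
  have e1 : (Real.cos t0 * -(1 / 2) - Real.sin t0 * (Real.sqrt 3 / 2)) * n.im -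
      (Real.sin t0 * -(1 / 2) + Real.cos t0 * (Real.sqrt 3 / 2)) * n.re =
      -(1 / 2) * A - Real.sqrt 3 / 2 * B := by rw [hA, hB]; ring
  have e2 : (Real.cos t0 * -(1 / 2) - Real.sin t0 * -(Real.sqrt 3 / 2)) * n.im -
      (Real.sin t0 * -(1 / 2) + Real.cos t0 * -(Real.sqrt 3 / 2)) * n.re =
      -(1 / 2) * A + Real.sqrt 3 / 2 * B := by rw [hA, hB]; ring
  rw [e1, e2]
  by_contra hcon
  push Not at hcon
  obtain ⟨h1, h2, h3⟩ := hcon
  have h4 : A = 0 := by linarith
  rw [h4] at h2 h3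
  have h5 : 0 < Real.sqrt 3 := Real.sqrt_pos.2 (by norm_num)
  have h6 : B = 0 := by
    have h7 : Real.sqrt 3 / 2 * B = 0 := by linarith
    exact (mul_eq_zero.1 h7).resolve_left (by positivity)
  have h8 : n.re ^ 2 + n.im ^ 2 = A ^ 2 + B ^ 2 := by
    rw [hA, hB]
    linear_combination (-(n.re ^ 2 + n.im ^ 2)) * Real.sin_sq_add_cos_sq t0
  rw [h4, h6] at h8
  apply hn
  apply Complex.ext
  · have : n.re ^ 2 = 0 := by nlinarith [sq_nonneg n.re, sq_nonneg n.im]
    simpa using this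
  · have : n.im ^ 2 = 0 := by nlinarith [sq_nonneg n.re, sq_nonneg n.im]
    simpa using this

/-- **Three-ray star** -/
theorem Irr.star_of_half503 (h : Irr U T) {z : ℂ} {p q : Fin k} {t0 : ℝ} (h0 : Half503 U T z p q t0)
    (h1 : Half503 U T z p q (t0 + 2 * Real.pi / 3)) (h2 : Half503 U T z p q (t0 + 4 * Real.pi / 3)) :
    Star503 T z p q := by
  refine star_of_rays503 (ι := Fin 3) ![Complex.I * cis t0, Complex.I * cis (t0 + 2 * Real.pi / 3),
    Complex.I * cis (t0 + 4 * Real.pi / 3)] ?_ ?_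
  · intro j
    fin_cases j
    · exact h.half_ray503 h0
    · exact h.half_ray503 h1
    · exact h.half_ray503 h2
  · intro n hn
    rcases three_pos503 t0 hn with h3 | h3 | h3
    · exact ⟨0, h3⟩
    · exact ⟨1, h3⟩
    · exact ⟨2, h3⟩

/-- **Left-over lemma** from the star -/
theorem Irr.star_near503 (h : Irr U T) {z y0 : ℂ} {p q : Fin k} (hL : Star503 T z p q)
    (hy0 : dist y0 z = 1) :
    ∀ᶠ w in 𝓝 y0, dist w z ≠ 1 → (w ∈ U p → q ∉ T w) ∧ (w ∈ U q → p ∉ T w) ∧
      ((T w).ncard ≤ 3 → p ∈ T w → q ∉ T w) := by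
  filter_upwards [hL y0 hy0] with w hw hwz
  obtain ⟨x, hrw, hsub⟩ := hw hwz
  -- a colour of `Pal w` : `x` is not in its set
  have hno : ∀ i ∈ Pal U w, x ∉ U i := fun i hi hxi => h.mx.notMem' hxi hrw hi
  have hno' : ∀ i, w ∈ U i → i ∉ T x := fun i hwi hxi =>
    h.mx.notMem' hwi (by rw [dist_comm]; exact hrw) (h.sub x hxi)
  refine ⟨fun hwp hq => ?_, fun hwq hp => ?_, fun h3 hp hq => ?_⟩
  · refine hno q (h.sub w hq) (h.mem_of_single fun i hi => ?_)
    rcases hsub hi with rfl | h5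
    · exact absurd hi (hno' _ hwp)
    · exact h5
  · refine hno p (h.sub w hp) (h.mem_of_single fun i hi => ?_)
    rcases hsub hi with h5 | h5
    · exact h5
    · rw [mem_singleton_iff] at h5
      subst h5
      exact absurd hi (hno' _ hwq)
  · refine h.not_sub (x := w) (y := x) hrw h3 fun i hi => ?_
    rcases hsub hi with rfl | h5
    · exact hp
    · rw [mem_singleton_iff] at h5
      subst h5
      exact hq

/-- **No silent colour**, from the stars `{s, a}`, `a ≠ s` -/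
theorem Irr.no_silent503 (h : Irr U T) {z : ℂ} (hz : z ∈ XX U) {s : Fin k} (hs : s ∈ T z)
    (hcl : ∀ y, dist y z = 1 → (T y).ncard ≤ 3)
    (hL : ∀ a, a ≠ s → Star503 T z s a) : ∀ y, dist y z = 1 → s ∈ T y := by
  have hoff : ∀ θ : ℝ, ∀ᶠ w in 𝓝 (z + cis θ), dist w z ≠ 1 → ∀ a, a ≠ s → a ∈ T w →
      w ∉ U s ∧ s ∉ T w := by
    intro θ
    have hy0 : dist (z + cis θ) z = 1 := dist_add_cis z θ
    have e1 : ∀ a : Fin k, ∀ᶠ w in 𝓝 (z + cis θ), a ≠ s → dist w z ≠ 1 →
        (w ∈ U s → a ∉ T w) ∧ ((T w).ncard ≤ 3 → s ∈ T w → a ∉ T w) := by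
      intro a
      by_cases ha : a = s
      · exact Eventually.of_forall fun w h1 => absurd ha h1
      · filter_upwards [h.star_near503 (hL a ha) hy0] with w hw _ hwz
        exact ⟨(hw hwz).1, (hw hwz).2.2⟩
    filter_upwards [eventually_all.2 e1, h.nhd (z + cis θ)] with w hw hsub hwz a ha haw
    have h3 : (T w).ncard ≤ 3 := (Set.ncard_le_ncard hsub (Set.toFinite _)).trans (hcl _ hy0)
    exact ⟨fun h4 => (hw a ha hwz).1 h4 haw, fun h4 => (hw a ha hwz).2 h3 h4 haw⟩
  have hstep : ∀ θ : ℝ, s ∈ Pal U (z + cis θ) → ∀ᶠ t in 𝓝 θ, s ∈ T (z + cis t) := fun θ hθ =>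
    h.spread hs (hoff θ) hθ
  set Y : Set ℝ := {θ | s ∈ Pal U (z + cis θ)} with hY
  have hYc : IsClosed Y :=
    isClosed_closure.preimage (continuous_const.add continuous_cis)
  have hYo : IsOpen Y := by
    rw [isOpen_iff_mem_nhds]
    intro θ hθ
    filter_upwards [hstep θ hθ] with t ht
    exact h.sub _ ht
  have hYne : Y.Nonempty := by
    obtain ⟨y, hy, hsy⟩ := h.partner_XX hz s
    obtain ⟨θ, hθ⟩ := exists_cis (u := y - z) (by rw [← dist_eq_norm, dist_comm]; exact hy)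
    exact ⟨θ, by
      have : z + cis θ = y := by rw [← hθ]; ring
      show s ∈ Pal U (z + cis θ)
      rw [this]; exact hsy⟩
  have hYu : Y = univ := IsClopen.eq_univ ⟨hYc, hYo⟩ hYne
  intro y hy
  obtain ⟨θ, hθ⟩ := exists_cis (u := y - z) (by rw [← dist_eq_norm]; exact hy)
  have e : z + cis θ = y := by rw [← hθ]; ring
  rw [← e]
  have h1 : θ ∈ Y := by rw [hYu]; exact mem_univ _
  exact (hstep θ h1).self_of_nhds

end Vale.Agent.P032.Six
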